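import Vale.Agent.P025.R2.H905.Dict
import Vale.Agent.P025.R2.H725.OneVertex

/-!
# G-DICT: `dict1_of`, `dict2_of` in the form of `H621.Spec7`
-/

open Vale.Agent.P019P P025H621 P025H373 P025H725

namespace P025H905

universe u

variable {C K : Type u} [NontriviallyNormedField C] [IsUltrametricDist C] [CompleteSpace C]
  [IsAlgClosed C] [Field K] [Algebra C K] [CFF C K] [Algebra (RatFunc C) K]
  [IsScalarTower C (RatFunc C) K] [FiniteDimensional (RatFunc C) K]

theorem dict1_of {n : ℕ} (hn : (n : C) ≠ 0) {f : K} {ε : ℝ} (hε : ε < ‖(n : C)‖ ^ 2)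
    (h : PowOn n ε (Inn (C := C) (algebraMap (RatFunc C) K RatFunc.X)) f) :
    PowIn (RatFunc C) (F1 C) n f := dict1_of' hn hε h

theorem dict2_of {n : ℕ} (hn : (n : C) ≠ 0) {f : K} {ε : ℝ} (hε : ε < ‖(n : C)‖ ^ 2)
    (h : PowOn n ε (Inn (C := C) (algebraMap (RatFunc C) K RatFunc.X))ᶜ f) :
    PowIn (RatFunc C) (F2 C) n f := dict2_of' hn hε h

end P025H905
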