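import Vale.Agent.P025.R2.H905.Of

/-!
# G-DICT: approximate powers on a side are powers over the field of the side (`dict1_of`, `dict2_of`)
-/

set_option linter.unusedSectionVars false
set_option linter.style.haveILetI false

open Polynomial Vale.Agent.P019P P025H621 P025H492 P025H373 TensorProduct Filter Topology

namespace P025H905

universe u

section up

variable {k K L : Type*} [Field k] [Field K] [Field L] [Algebra k K] [Algebra k L]
  [Algebra K L] [IsScalarTower k K L] [CFF k K] [CFF k L] [Algebra.IsAlgebraic K L]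

/-- values do not change upstairs -/
theorem Vl.up {P : Plk k L} {z : K} {c : k} (h : Vl (down K P) z c) :
    Vl P (algebraMap K L z) c := by
  rw [Vl, IsScalarTower.algebraMap_apply k K L, ← map_sub]
  rcases h with h | h
  · left; rw [h, map_zero]
  · right
    rw [ord_algebraMap]
    have := ram_pos (K := K) P
    nlinarith

end up

section rat

variable {C : Type*} [Field C] [CFF C (RatFunc C)]

lemma X_ne_const (a : C) : (RatFunc.X : RatFunc C) ≠ algebraMap C (RatFunc C) a := fun h =>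
  RatFunc.transcendental_X (K := C) (h ▸ isAlgebraic_algebraMap a)

/-- the point `a` -/
lemma exists_point (a : C) : ∃ P : Plk C (RatFunc C), Vl P RatFunc.X a := by
  obtain ⟨P, hP⟩ := exists_zero (z := (RatFunc.X : RatFunc C) - algebraMap C (RatFunc C) a)
    (fun b h => X_ne_const (b + a) (by rw [map_add, ← h, sub_add_cancel]))
  exact ⟨P, Or.inr (by omega)⟩

/-- the point at infinity -/
lemma exists_infty : ∃ P : Plk C (RatFunc C), Vl P (RatFunc.X : RatFunc C)⁻¹ 0 := by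
  obtain ⟨P, hP⟩ := exists_pole (z := (RatFunc.X : RatFunc C)) X_ne_const
  refine ⟨P, Or.inr ?_⟩
  rw [map_zero, sub_zero, ord_inv]
  omega

lemma aeval_X_eq (p : C[X]) : aeval (RatFunc.X : RatFunc C) p = algebraMap C[X] (RatFunc C) p := by
  rw [← RatFunc.algebraMap_X, aeval_algebraMap_apply, aeval_X_left_apply]

/-- values at finite points -/
lemma eval_of_Vl {P : Plk C (RatFunc C)} {a : C} (ha : Vl P RatFunc.X a) {c : RatFunc C} {v : C}
    (hv : Vl P c v) : c.denom.eval a ≠ 0 ∧ c.num.eval a / c.denom.eval a = v := by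
  have h1 := ha.aeval c.num
  have h2 := ha.aeval c.denom
  rw [aeval_X_eq] at h1 h2
  have h3 := hv.mul h2
  have h4 : c * algebraMap C[X] (RatFunc C) c.denom = algebraMap C[X] (RatFunc C) c.num := by
    exact ((div_eq_iff (RatFunc.algebraMap_ne_zero c.denom_ne_zero)).1 c.num_div_denom).symm
  rw [h4] at h3
  have h5 := h1.unique h3
  have h6 : c.denom.eval a ≠ 0 := by
    intro h0
    rw [h0, mul_zero] at h5
    obtain ⟨u, w, huw⟩ := c.isCoprime_num_denom
    have := congrArg (Polynomial.eval a) huw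
    rw [eval_add, eval_mul, eval_mul, h0, h5, mul_zero, mul_zero, add_zero, eval_one] at this
    exact zero_ne_one this
  exact ⟨h6, by rw [h5, mul_div_cancel_right₀ _ h6]⟩

/-- values at infinity -/
lemma Vl_infty {P : Plk C (RatFunc C)} (hP : Vl P (RatFunc.X : RatFunc C)⁻¹ 0) (p : C[X]) {N : ℕ}
    (hN : p.natDegree ≤ N) :
    Vl P (algebraMap C[X] (RatFunc C) p * (RatFunc.X : RatFunc C)⁻¹ ^ N) (p.coeff N) := by
  have h1 : algebraMap C[X] (RatFunc C) p * (RatFunc.X : RatFunc C)⁻¹ ^ N =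
      ∑ i ∈ Finset.range (N + 1), algebraMap C (RatFunc C) (p.coeff i) *
        (RatFunc.X : RatFunc C)⁻¹ ^ (N - i) := by
    rw [← aeval_X_eq, aeval_eq_sum_range' (Nat.lt_succ_of_le hN), Finset.sum_mul]
    refine Finset.sum_congr rfl fun i hi => ?_
    have hi' : i ≤ N := Nat.lt_succ_iff.1 (Finset.mem_range.1 hi)
    have hX : (RatFunc.X : RatFunc C) ≠ 0 := RatFunc.X_ne_zero
    rw [Algebra.smul_def, mul_assoc]
    congr 1
    rw [← Nat.sub_add_cancel hi', pow_add, Nat.add_sub_cancel, mul_comm, mul_assoc, ← mul_pow,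
      inv_mul_cancel₀ hX, one_pow, mul_one]
  have h2 : p.coeff N = ∑ i ∈ Finset.range (N + 1), p.coeff i * 0 ^ (N - i) := by
    rw [Finset.sum_eq_single N]
    · rw [Nat.sub_self, pow_zero, mul_one]
    · intro i hi hne
      have hi' : i ≤ N := Nat.lt_succ_iff.1 (Finset.mem_range.1 hi)
      rw [zero_pow (by omega), mul_zero]
    · intro h
      exact absurd (Finset.mem_range.2 (Nat.lt_succ_self N)) h
  rw [h1, h2]
  exact Vl.sum fun i _ => (Vl.const _).mul (hP.pow _)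

lemma natDegree_le_of_Vl {P : Plk C (RatFunc C)} (hP : Vl P (RatFunc.X : RatFunc C)⁻¹ 0)
    {c : RatFunc C} {v : C} (hv : Vl P c v) : c.num.natDegree ≤ c.denom.natDegree := by
  by_contra hlt
  rw [not_le] at hlt
  have h1 := Vl_infty hP c.num le_rfl
  have h2 := Vl_infty hP c.denom hlt.le
  have h4 : c * algebraMap C[X] (RatFunc C) c.denom = algebraMap C[X] (RatFunc C) c.num :=
    ((div_eq_iff (RatFunc.algebraMap_ne_zero c.denom_ne_zero)).1 c.num_div_denom).symm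
  have h3 := hv.mul h2
  rw [← mul_assoc, h4, coeff_eq_zero_of_natDegree_lt hlt, mul_zero] at h3
  have h5 := h1.unique h3
  have h6 : c.num = 0 := leadingCoeff_eq_zero.1 h5
  rw [h6, natDegree_zero] at hlt
  omega

end rat

theorem pow_of_div_pow {R F K : Type*} [Field R] [Field F] [Field K] [Algebra R F] [Algebra R K]
    {n : ℕ} {f g : K} (hg : g ≠ 0) (h : ∃ z : F ⊗[R] K, z ^ n = (1 : F) ⊗ₜ[R] (f / g ^ n)) :
    ∃ z : F ⊗[R] K, z ^ n = (1 : F) ⊗ₜ[R] f := by
  obtain ⟨z, hz⟩ := h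
  refine ⟨z * (1 ⊗ₜ[R] g), ?_⟩
  rw [mul_pow, hz, Algebra.TensorProduct.tmul_pow, one_pow, Algebra.TensorProduct.tmul_mul_tmul,
    one_mul, div_mul_cancel₀ _ (pow_ne_zero n hg)]

theorem cff_rat (C K : Type*) [Field C] [Field K] [Algebra C K] [CFF C K] [Algebra (RatFunc C) K]
    [IsScalarTower C (RatFunc C) K] : CFF C (RatFunc C) :=
  cff_down (L := K) (RatFunc.transcendental_X (K := C))

section main

variable {C K : Type u} [NontriviallyNormedField C] [IsUltrametricDist C] [CompleteSpace C]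
  [IsAlgClosed C] [Field K] [Algebra C K] [CFF C K] [Algebra (RatFunc C) K]
  [IsScalarTower C (RatFunc C) K] [FiniteDimensional (RatFunc C) K]


/-- constants of norm slightly smaller than `r` -/
lemma exists_const_between {ε : ℝ} {y : C} (hy : y ≠ 0) (h : ε < ‖y‖) :
    ∃ e : C, e ≠ 0 ∧ ε ≤ ‖e‖ ∧ ‖e‖ < ‖y‖ := by
  obtain ⟨x, hx, hlim⟩ := exists_seq (C := C)
  have hy' : 0 < ‖y‖ := norm_pos_iff.2 hy
  have h1 : Tendsto (fun n => ‖y‖ / ‖x n‖) atTop (𝓝 (‖y‖ / 1)) :=
    tendsto_const_nhds.div hlim one_ne_zero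
  rw [div_one] at h1
  obtain ⟨n, hn⟩ := (h1.eventually (lt_mem_nhds h)).exists
  have hxn : 0 < ‖x n‖ := zero_lt_one.trans (hx n)
  refine ⟨y / x n, div_ne_zero hy (norm_pos_iff.1 hxn), ?_, ?_⟩
  · rw [norm_div]; exact hn.le
  · rw [norm_div, div_lt_iff₀ hxn]
    exact lt_mul_of_one_lt_right hy' (hx n)

/-- the common core -/
theorem dict_of (A : Subalgebra C (F0 C)) (hA : IsClosed (A : Set (F0 C)))
    (F : IntermediateField (RatFunc C) (F0 C)) (hAF : ∀ x ∈ A, x ∈ F) (U : Set (Plk C K))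
    (hU : ∀ c : RatFunc C, (∀ [CFF C (RatFunc C)], ∀ P : Plk C (RatFunc C),
      (∀ P' : Plk C K, down (RatFunc C) P' = P → P' ∈ U) → ∃ v : C, ‖v‖ ≤ 1 ∧ Vl P c v) →
      algebraMap (RatFunc C) (F0 C) c ∈ A ∧ gauss C c ≤ 1)
    {n : ℕ} (hn : (n : C) ≠ 0) {f : K} {ε : ℝ} (hε : ε < ‖(n : C)‖ ^ 2) (h : PowOn n ε U f) :
    ∃ z : F ⊗[RatFunc C] K, z ^ n = 1 ⊗ₜ[RatFunc C] f := by
  haveI := cff_rat C K
  obtain ⟨g, hg, hf⟩ := h
  obtain ⟨e, he0, he1, he2⟩ := exists_const_between (y := (n : C) ^ 2) (pow_ne_zero 2 hn)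
    (by rwa [norm_pow])
  rw [norm_pow] at he2
  set h0 : K := algebraMap C K e⁻¹ * (f / g ^ n - 1) with hh0
  have hval : ∀ P ∈ U, ∃ v : C, ‖v‖ ≤ 1 ∧ Vl P h0 v := by
    intro P hP
    obtain ⟨c, hc, hcv⟩ := hf P hP
    have hcv' : Vl P (f / g ^ n) c := hcv
    refine ⟨e⁻¹ * (c - 1), ?_, (Vl.const _).mul (hcv'.sub Vl.one)⟩
    rw [norm_mul, norm_inv, inv_mul_le_iff₀ (norm_pos_iff.2 he0), mul_one]
    exact hc.trans he1
  obtain ⟨z, hz⟩ := pow_of_coeffs A hA F hAF hn he2 (h := h0) (fun i => by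
    by_cases hi : i ≤ (minpoly (RatFunc C) h0).natDegree
    · refine hU _ (fun P hP => ?_)
      obtain ⟨v, hv, hv2⟩ := exists_coeff_value (P := P) zero_lt_one
        (fun P' hP' => hval P' (hP P' hP')) hi
      exact ⟨v, by rwa [one_pow] at hv, hv2⟩
    · rw [coeff_eq_zero_of_natDegree_lt (not_le.1 hi), map_zero, map_zero]
      exact ⟨zero_mem _, zero_le_one⟩)
  have h1 : 1 + algebraMap C K e * h0 = f / g ^ n := by
    rw [hh0, ← mul_assoc, ← map_mul, mul_inv_cancel₀ he0, map_one, one_mul, add_sub_cancel]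
  rw [h1] at hz
  exact pow_of_div_pow hg ⟨z, hz⟩

/-- **dictionary, inner side.** -/
theorem dict1_of' {n : ℕ} (hn : (n : C) ≠ 0) {f : K} {ε : ℝ} (hε : ε < ‖(n : C)‖ ^ 2)
    (h : PowOn n ε (Inn (C := C) (algebraMap (RatFunc C) K RatFunc.X)) f) :
    ∃ z : F1 C ⊗[RatFunc C] K, z ^ n = 1 ⊗ₜ[RatFunc C] f := by
  refine dict_of (A1 C) isClosed_A1 (F1 C) (fun x hx => A1_le_F1 hx) _ ?_ hn hε h
  intro c hc
  haveI := cff_rat C K
  refine mem_A1_of_eval fun a ha => ?_
  obtain ⟨P, hP⟩ := exists_point a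
  obtain ⟨v, hv, hcv⟩ := hc P (fun P' hP' => by
    rw [← hP'] at hP
    exact ⟨a, by rwa [sub_zero], hP.up⟩)
  obtain ⟨h1, h2⟩ := eval_of_Vl hP hcv
  exact ⟨h1, by rwa [h2]⟩

/-- **dictionary, outer side.** -/
theorem dict2_of' {n : ℕ} (hn : (n : C) ≠ 0) {f : K} {ε : ℝ} (hε : ε < ‖(n : C)‖ ^ 2)
    (h : PowOn n ε (Inn (C := C) (algebraMap (RatFunc C) K RatFunc.X))ᶜ f) :
    ∃ z : F2 C ⊗[RatFunc C] K, z ^ n = 1 ⊗ₜ[RatFunc C] f := by
  refine dict_of (A2 C) isClosed_A2 (F2 C) (fun x hx => A2_le_F2 hx) _ ?_ hn hε h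
  intro c hc
  haveI := cff_rat C K
  refine mem_A2_of_eval (fun a ha => ?_) ?_
  · obtain ⟨P, hP⟩ := exists_point a
    obtain ⟨v, hv, hcv⟩ := hc P (fun P' hP' => by
      rintro ⟨d, hd, hdv⟩
      rw [← hP'] at hP
      have h1 : a = d := hP.up.unique hdv
      rw [sub_zero, ← h1] at hd
      exact absurd ha (not_lt.2 hd))
    obtain ⟨h1, h2⟩ := eval_of_Vl hP hcv
    exact ⟨h1, by rwa [h2]⟩
  · obtain ⟨P, hP⟩ := exists_infty (C := C)
    obtain ⟨v, hv, hcv⟩ := hc P (fun P' hP' => by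
      rintro ⟨d, hd, hdv⟩
      rw [← hP'] at hP
      have h1 : Vl P' (algebraMap (RatFunc C) K RatFunc.X⁻¹) 0 := hP.up
      have h2 := Vl.mul hdv h1
      rw [map_inv₀, mul_inv_cancel₀ ((_root_.map_ne_zero _).2 RatFunc.X_ne_zero), mul_zero] at h2
      exact one_ne_zero (Vl.one.unique h2))
    exact natDegree_le_of_Vl hP hcv

end main

end P025H905
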