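import Vale.Agent.P025.R2.H373.Gauss5

/-!
# G-DICT: maximum principle for rational functions on the two sides
-/

set_option linter.unusedSectionVars false

open Polynomial P025H373 Filter Topology

namespace P025H905

universe u

section

variable {C : Type u} [NormedField C] [IsUltrametricDist C] [IsAlgClosed C]

lemma norm_root_le {S : C[X]} (hS : S.Monic) (h1 : gp S ≤ 1) {a : C} (ha : S.IsRoot a) :
    ‖a‖ ≤ 1 := by
  obtain ⟨T, hT⟩ := dvd_iff_isRoot.2 ha
  have hTm : T.Monic := (monic_X_sub_C a).of_mul_monic_left (by rw [← hT]; exact hS)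
  have h2 : 1 ≤ gp T := by
    have := norm_coeff_le T T.natDegree
    rwa [hTm.coeff_natDegree, norm_one] at this
  rw [hT, gp_mul, gp_X_sub_C] at h1
  have h3 : max 1 ‖a‖ ≤ 1 := by
    refine le_trans ?_ h1
    exact le_mul_of_one_le_right (le_trans zero_le_one (le_max_left _ _)) h2
  exact (le_max_right _ _).trans h3

lemma norm_eval_one_add {Q : C[X]} (hQ : gp (Q - 1) < 1) {a : C} (ha : ‖a‖ ≤ 1) :
    ‖Q.eval a‖ = 1 := by
  have h1 : ‖Q.eval a - 1‖ < 1 := by
    have := norm_eval_le (Q - 1) ha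
    rw [eval_sub, eval_one] at this
    exact this.trans_lt hQ
  have h2 := IsUltrametricDist.norm_add_eq_max_of_norm_ne_norm (x := Q.eval a - 1) (y := (1 : C))
    (by rw [norm_one]; exact h1.ne)
  rw [sub_add_cancel, norm_one, max_eq_right h1.le] at h2
  exact h2

/-- generic points of the closed disc. -/
lemma exists_generic {P : C[X]} (hP : P ≠ 0) : ∃ a : C, ‖a‖ ≤ 1 ∧ ‖P.eval a‖ = gp P := by
  obtain ⟨c, S, Q, hc, hS, hS1, hSr, hQ, hcop, hQr, hD⟩ := exists_factor P hP
  have hgp : gp P = ‖c‖ := by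
    rw [hD, gp_mul, gp_C, gp_mul, gp_monic_of_le hS hS1, gp_eq_one_of_sub_lt hQ, mul_one, mul_one]
  have key : ∃ a : C, ‖a‖ ≤ 1 ∧ S.eval a = 1 := by
    by_cases hd : S.natDegree = 0
    · refine ⟨0, by simp, ?_⟩
      rw [hS.natDegree_eq_zero.1 hd, eval_one]
    · have hdeg : (S - 1).degree = S.degree := by
        refine degree_sub_eq_left_of_degree_lt ?_
        rw [degree_one]
        exact natDegree_pos_iff_degree_pos.1 (Nat.pos_of_ne_zero hd)
      obtain ⟨a, ha⟩ := IsAlgClosed.exists_root (S - 1) (by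
        rw [hdeg]
        exact (natDegree_pos_iff_degree_pos.1 (Nat.pos_of_ne_zero hd)).ne')
      have hm : (S - 1).Monic := by
        refine hS.sub_of_left ?_
        rw [degree_one]
        exact natDegree_pos_iff_degree_pos.1 (Nat.pos_of_ne_zero hd)
      have hg : gp (S - 1) ≤ 1 := (gp_sub_le_max _ _).trans (max_le hS1 gp_one.le)
      refine ⟨a, norm_root_le hm hg ha, ?_⟩
      rw [IsRoot.def, eval_sub, eval_one, sub_eq_zero] at ha
      exact ha
  obtain ⟨a, ha, hSa⟩ := key
  refine ⟨a, ha, ?_⟩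
  rw [hgp, hD, eval_mul, eval_mul, eval_C, hSa, one_mul, norm_mul, norm_eval_one_add hQ ha, mul_one]

variable [CompleteSpace C]

/-- regular functions on the closed disc -/
theorem mem_A1_of_eval {c : RatFunc C} {R : ℝ}
    (h : ∀ a : C, ‖a‖ ≤ 1 → c.denom.eval a ≠ 0 ∧ ‖c.num.eval a / c.denom.eval a‖ ≤ R) :
    algebraMap (RatFunc C) (F0 C) c ∈ A1 C ∧ gauss C c ≤ R := by
  constructor
  · obtain ⟨d, S, Q, hd, hS, hS1, hSr, hQ, hcop, hQr, hD⟩ := exists_factor c.denom c.denom_ne_zero
    have hS0 : S = 1 := by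
      rw [← hS.natDegree_eq_zero]
      by_contra hne
      obtain ⟨a, ha⟩ := IsAlgClosed.exists_root S
        (natDegree_pos_iff_degree_pos.1 (Nat.pos_of_ne_zero hne)).ne'
      refine (h a (norm_root_le hS hS1 ha)).1 ?_
      rw [hD, eval_mul, eval_mul, ha, zero_mul, mul_zero]
    refine pre1_mem_A1 ⟨Polynomial.C d⁻¹ * c.num, Q, hQ, ?_⟩
    have hQ0 : Q ≠ 0 := by
      rintro rfl
      rw [zero_sub, gp_neg, gp_one] at hQ
      exact lt_irrefl _ hQ
    have hd0 : algebraMap C[X] (RatFunc C) (Polynomial.C d) ≠ 0 :=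
      RatFunc.algebraMap_ne_zero (C_ne_zero.2 hd)
    have hQ0' : algebraMap C[X] (RatFunc C) Q ≠ 0 := RatFunc.algebraMap_ne_zero hQ0
    rw [hS0, one_mul] at hD
    conv_lhs => rw [← c.num_div_denom, hD]
    rw [map_mul, map_mul, div_eq_div_iff (mul_ne_zero hd0 hQ0') hQ0']
    have h3 : algebraMap C[X] (RatFunc C) (Polynomial.C d) *
        algebraMap C[X] (RatFunc C) (Polynomial.C d⁻¹) = 1 := by
      rw [← map_mul, ← map_mul, mul_inv_cancel₀ hd, map_one, map_one]
    linear_combination (-(algebraMap C[X] (RatFunc C) c.num * algebraMap C[X] (RatFunc C) Q)) * h3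
  · by_cases h0 : c = 0
    · rw [h0, map_zero]
      exact (norm_nonneg _).trans (h 0 (by simp)).2
    have hn : c.num ≠ 0 := RatFunc.num_ne_zero h0
    obtain ⟨a, ha, hg⟩ := exists_generic (mul_ne_zero hn c.denom_ne_zero)
    rw [eval_mul, norm_mul, gp_mul] at hg
    have h1 := norm_eval_le c.num ha
    have h2 := norm_eval_le c.denom ha
    have hnp : 0 < gp c.num := lt_of_le_of_ne (gp_nonneg _) fun h => hn (gp_eq_zero.1 h.symm)
    have hdp : 0 < gp c.denom :=
      lt_of_le_of_ne (gp_nonneg _) fun h => c.denom_ne_zero (gp_eq_zero.1 h.symm)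
    have h3 : ‖c.num.eval a‖ = gp c.num := by
      refine le_antisymm h1 ?_
      by_contra hlt
      rw [not_le] at hlt
      have : ‖c.num.eval a‖ * ‖c.denom.eval a‖ < gp c.num * gp c.denom := by
        calc ‖c.num.eval a‖ * ‖c.denom.eval a‖ ≤ ‖c.num.eval a‖ * gp c.denom := by gcongr
          _ < gp c.num * gp c.denom := by gcongr
      exact absurd hg this.ne
    have h4 : ‖c.denom.eval a‖ = gp c.denom := by
      rw [h3] at hg
      exact mul_left_cancel₀ hnp.ne' hg
    have h5 := (h a ha).2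
    rw [norm_div, h3, h4] at h5
    conv_lhs => rw [← c.num_div_denom]
    rw [gauss_div]
    exact h5

end

section

variable {C : Type u} [NontriviallyNormedField C] [IsUltrametricDist C] [IsAlgClosed C]

/-- constants with norms tending to `1` from above. -/
lemma exists_seq : ∃ x : ℕ → C, (∀ n, 1 < ‖x n‖) ∧ Tendsto (fun n => ‖x n‖) atTop (𝓝 1) := by
  obtain ⟨y, hy⟩ := NormedField.exists_one_lt_norm C
  have h1 : ∀ n : ℕ, ∃ x : C, x ^ (n + 1) = y := fun n =>
    IsAlgClosed.exists_pow_nat_eq y (Nat.succ_pos n)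
  choose x hx using h1
  have h2 : ∀ n, ‖x n‖ ^ (n + 1) = ‖y‖ := fun n => by rw [← norm_pow, hx]
  have h3 : ∀ n, 1 < ‖x n‖ := fun n => by
    by_contra h
    rw [not_lt] at h
    have := pow_le_one₀ (norm_nonneg (x n)) h (n := n + 1)
    rw [h2] at this
    exact absurd hy (not_lt.2 this)
  refine ⟨x, h3, ?_⟩
  have h4 : ∀ n, ‖x n‖ ≤ 1 + (‖y‖ - 1) / ((n : ℝ) + 1) := fun n => by
    have hb := one_add_mul_le_pow (a := ‖x n‖ - 1) (by linarith [h3 n]) (n + 1)
    rw [add_sub_cancel, h2] at hb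
    push_cast at hb
    have hn : (0 : ℝ) < (n : ℝ) + 1 := by positivity
    rw [← sub_le_iff_le_add', le_div_iff₀ hn]
    linarith
  refine tendsto_of_tendsto_of_tendsto_of_le_of_le tendsto_const_nhds ?_ (fun n => (h3 n).le) h4
  have h5 : Tendsto (fun n : ℕ => 1 + (‖y‖ - 1) / ((n : ℝ) + 1)) atTop (𝓝 (1 + 0)) := by
    refine Tendsto.const_add _ ?_
    exact (tendsto_const_div_atTop_nhds_zero_nat (‖y‖ - 1)).comp (tendsto_add_atTop_nat 1) |>.congr
      (fun n => by simp)
  rwa [add_zero] at h5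

lemma norm_eval_le_pow (P : C[X]) {a : C} (ha : 1 ≤ ‖a‖) : ‖P.eval a‖ ≤ gp P * ‖a‖ ^ P.natDegree := by
  rw [eval_eq_sum_range]
  refine IsUltrametricDist.norm_sum_le_of_forall_le_of_nonneg
    (mul_nonneg (gp_nonneg P) (by positivity)) fun i hi => ?_
  rw [norm_mul, norm_pow]
  have hi' : i ≤ P.natDegree := Nat.lt_succ_iff.1 (Finset.mem_range.1 hi)
  exact mul_le_mul (norm_coeff_le P i) (pow_le_pow_right₀ ha hi') (by positivity) (gp_nonneg P)

lemma norm_eval_monic {S : C[X]} (hS : S.Monic) (h1 : gp S ≤ 1) {a : C} (ha : 1 < ‖a‖) :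
    ‖S.eval a‖ = ‖a‖ ^ S.natDegree := by
  have hs : S.Splits := IsAlgClosed.splits S
  have key : ∀ s : Multiset C, (∀ b ∈ s, ‖b‖ ≤ 1) →
      ‖((s.map fun b => X - Polynomial.C b).prod).eval a‖ = ‖a‖ ^ s.card := by
    intro s
    induction s using Multiset.induction_on with
    | empty => intro _; simp
    | cons b s ih =>
      intro hb
      rw [Multiset.map_cons, Multiset.prod_cons, eval_mul, norm_mul, Multiset.card_cons, pow_succ',
        ih fun c hc => hb c (Multiset.mem_cons_of_mem hc), eval_sub, eval_X, eval_C]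
      congr 1
      have hb1 := hb b (Multiset.mem_cons_self _ _)
      have := IsUltrametricDist.norm_add_eq_max_of_norm_ne_norm (x := a) (y := -b)
        (by rw [norm_neg]; exact (hb1.trans_lt ha).ne')
      rw [norm_neg, ← sub_eq_add_neg, max_eq_left (hb1.trans ha.le)] at this
      exact this
  rw [hs.natDegree_eq_card_roots, ← key S.roots fun b hb =>
    norm_root_le hS h1 (isRoot_of_mem_roots hb), ← hs.eq_prod_roots_of_monic hS]

variable [CompleteSpace C]

/-- regular functions off the closed disc -/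
theorem mem_A2_of_eval {c : RatFunc C} {R : ℝ}
    (h : ∀ a : C, 1 < ‖a‖ → c.denom.eval a ≠ 0 ∧ ‖c.num.eval a / c.denom.eval a‖ ≤ R)
    (hd : c.num.natDegree ≤ c.denom.natDegree) :
    algebraMap (RatFunc C) (F0 C) c ∈ A2 C ∧ gauss C c ≤ R := by
  have hDm : c.denom.Monic := RatFunc.monic_denom c
  have hD1 : gp c.denom ≤ 1 := by
    obtain ⟨d, S, Q, hd, hS, hS1, hSr, hQ, hcop, hQr, hD⟩ := exists_factor c.denom c.denom_ne_zero
    have hQ0 : Q.natDegree = 0 := by
      by_contra hne
      obtain ⟨a, ha⟩ := IsAlgClosed.exists_root Q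
        (natDegree_pos_iff_degree_pos.1 (Nat.pos_of_ne_zero hne)).ne'
      refine (h a (hQr a ha)).1 ?_
      rw [hD, eval_mul, eval_mul, ha, mul_zero, mul_zero]
    obtain ⟨q, hq⟩ := natDegree_eq_zero.1 hQ0
    have h1 : c.denom.leadingCoeff = d * q := by
      rw [hD, leadingCoeff_mul, leadingCoeff_mul, leadingCoeff_C, ← hq, leadingCoeff_C,
        hS.leadingCoeff, one_mul]
    rw [hDm.leadingCoeff] at h1
    have h2 : gp c.denom = ‖d * q‖ * gp S := by
      rw [hD, gp_mul, gp_C, gp_mul, ← hq, gp_C, norm_mul]; ring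
    rw [h2, ← h1, norm_one, one_mul]
    exact hS1
  constructor
  · refine algebraMap_mem_A2 ⟨c.num, c.denom, hDm, ?_, gp_le_iff.1 hD1, (c.num_div_denom).symm⟩
    by_cases h0 : c.num = 0
    · rw [h0, degree_zero]; exact bot_le
    · rw [degree_eq_natDegree h0, degree_eq_natDegree c.denom_ne_zero]
      exact_mod_cast hd
  · by_cases h0 : c = 0
    · obtain ⟨x, hx, -⟩ := exists_seq (C := C)
      rw [h0, map_zero]
      exact (norm_nonneg _).trans (h (x 0) (hx 0)).2
    have hn : c.num ≠ 0 := RatFunc.num_ne_zero h0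
    obtain ⟨d, S, Q, hd0, hS, hS1, hSr, hQ, hcop, hQr, hN⟩ := exists_factor c.num hn
    obtain ⟨x, hx, hlim⟩ := exists_seq (C := C)
    have hgn : gp c.num = ‖d‖ := by
      rw [hN, gp_mul, gp_C, gp_mul, gp_monic_of_le hS hS1, gp_eq_one_of_sub_lt hQ, mul_one, mul_one]
    have hg : gauss C c = ‖d‖ := by
      conv_lhs => rw [← c.num_div_denom]
      rw [gauss_div, hgn, gp_monic_of_le hDm hD1, div_one]
    rw [hg]
    have hev : ∀ᶠ n in atTop, gp (Q - 1) * ‖x n‖ ^ (Q - 1).natDegree < 1 := by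
      have h1 : Tendsto (fun n => gp (Q - 1) * ‖x n‖ ^ (Q - 1).natDegree) atTop
          (𝓝 (gp (Q - 1) * 1 ^ (Q - 1).natDegree)) := (hlim.pow _).const_mul _
      rw [one_pow, mul_one] at h1
      exact h1.eventually (gt_mem_nhds hQ)
    have hle : ∀ᶠ n in atTop, ‖d‖ ≤ R * ‖x n‖ ^ c.denom.natDegree := by
      filter_upwards [hev] with n hn1
      have h1 := (h (x n) (hx n)).2
      have h2 : ‖c.denom.eval (x n)‖ = ‖x n‖ ^ c.denom.natDegree := norm_eval_monic hDm hD1 (hx n)
      have h3 : ‖Q.eval (x n)‖ = 1 := by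
        have h4 : ‖Q.eval (x n) - 1‖ < 1 := by
          have := norm_eval_le_pow (Q - 1) (hx n).le
          rw [eval_sub, eval_one] at this
          exact this.trans_lt hn1
        have h5 := IsUltrametricDist.norm_add_eq_max_of_norm_ne_norm (x := Q.eval (x n) - 1)
          (y := (1 : C)) (by rw [norm_one]; exact h4.ne)
        rw [sub_add_cancel, norm_one, max_eq_right h4.le] at h5
        exact h5
      have h4 : ‖d‖ ≤ ‖c.num.eval (x n)‖ := by
        rw [hN, eval_mul, eval_mul, eval_C, norm_mul, norm_mul, h3, mul_one,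
          norm_eval_monic hS hS1 (hx n)]
        exact le_mul_of_one_le_right (norm_nonneg _) (one_le_pow₀ (hx n).le)
      have h5 : 0 < ‖x n‖ ^ c.denom.natDegree := by
        have := hx n
        positivity
      rw [norm_div, h2, div_le_iff₀ h5] at h1
      exact h4.trans h1
    have hlim2 : Tendsto (fun n => R * ‖x n‖ ^ c.denom.natDegree) atTop
        (𝓝 (R * 1 ^ c.denom.natDegree)) := (hlim.pow _).const_mul _
    rw [one_pow, mul_one] at hlim2
    exact ge_of_tendsto hlim2 hle

end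

end P025H905
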