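import Vale.Agent.P025.R2.H905.Vl

/-!
# G-DICT: values of the coefficients of minimal polynomials (S2)
-/

set_option linter.unusedSectionVars false

open Polynomial Vale.Agent.P019P P025H621 P025H492 P025H373

namespace P025H905

universe u

section roots

variable {C : Type*} [NormedField C] [IsUltrametricDist C]

lemma norm_coeff_prod_le {R : ℝ} (hR : 0 < R) (s : Multiset C) (hs : ∀ a ∈ s, ‖a‖ ≤ R) (i : ℕ) :
    ‖(s.map fun a => X - Polynomial.C a).prod.coeff i‖ * R ^ i ≤ R ^ s.card := by
  have key : ∀ s : Multiset C, (∀ a ∈ s, ‖a‖ ≤ R) →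
      (s.map fun a => X - Polynomial.C a).prod.gaussNorm (nv C) R ≤ R ^ s.card := by
    intro s
    induction s using Multiset.induction_on with
    | empty =>
      intro _
      rw [Multiset.map_zero, Multiset.prod_zero, Multiset.card_zero, pow_zero, ← Polynomial.C_1,
        gaussNorm_C, nv_apply, norm_one]
    | cons a s ih =>
      intro hs
      rw [Multiset.map_cons, Multiset.prod_cons, gaussNorm_mul (nv_na C) hR, Multiset.card_cons,
        pow_succ']
      have h1 : (X - Polynomial.C a).gaussNorm (nv C) R ≤ R := by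
        have h2 : (X : C[X]).gaussNorm (nv C) R = R := by
          have := gaussNorm_monomial (nv C) R 1 (1 : C)
          rwa [Polynomial.monomial_one_one_eq_X, nv_apply, norm_one, one_mul, pow_one] at this
        have h3 : (Polynomial.C (-a)).gaussNorm (nv C) R ≤ R := by
          rw [gaussNorm_C, nv_apply, norm_neg]
          exact hs a (Multiset.mem_cons_self _ _)
        rw [sub_eq_add_neg, ← Polynomial.C_neg]
        exact (isNonarchimedean_gaussNorm (nv C) (nv_na C) hR.le _ _).trans (max_le h2.le h3)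
      exact mul_le_mul h1 (ih fun b hb => hs b (Multiset.mem_cons_of_mem hb))
        (gaussNorm_nonneg _ _ hR.le) hR.le
  have := (s.map fun a => X - Polynomial.C a).prod.le_gaussNorm (nv C) hR.le i
  exact this.trans (key s hs)

/-- the coefficients of a monic polynomial with small roots. -/
lemma norm_coeff_le_of_roots [IsAlgClosed C] {R : ℝ} (hR : 0 < R) {p : C[X]} (hp : p.Monic)
    (h : ∀ r, p.IsRoot r → ‖r‖ ≤ R) {i : ℕ} (hi : i ≤ p.natDegree) :
    ‖p.coeff i‖ ≤ R ^ (p.natDegree - i) := by
  have hs : p.Splits := IsAlgClosed.splits p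
  have h1 := norm_coeff_prod_le hR p.roots (fun a ha => h a (isRoot_of_mem_roots ha)) i
  rw [← hs.eq_prod_roots_of_monic hp, ← hs.natDegree_eq_card_roots] at h1
  have h2 : R ^ p.natDegree = R ^ (p.natDegree - i) * R ^ i := by
    rw [← pow_add, Nat.sub_add_cancel hi]
  rw [h2] at h1
  exact le_of_mul_le_mul_right h1 (by positivity)

end roots

section values

variable {k K L : Type*} [Field k] [Field K] [Field L] [Algebra k K] [Algebra k L]
  [Algebra K L] [IsScalarTower k K L] [CFF k K] [CFF k L] [FiniteDimensional K L]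

/-- roots of the reduction of the minimal polynomial are values. -/
theorem exists_value {P : Plk k K} {z : L} (hz : ∀ P' : Plk k L, down K P' = P → z ∈ P'.1) {r : k}
    (h : Vl P ((minpoly K z).eval (algebraMap k K r)) 0) :
    ∃ P' : Plk k L, down K P' = P ∧ Vl P' z r := by
  classical
  by_contra hcon
  push Not at hcon
  have h1 : ∀ P' : Plk k L, down K P' = P → ord P' (z - algebraMap k L r) = 0 := by
    intro P' hP'
    obtain ⟨c, hc⟩ := exists_Vl (hz P' hP')
    have hcr : c ≠ r := fun e => hcon P' hP' (e ▸ hc)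
    exact (hc.sub (Vl.const r)).ord_eq (sub_ne_zero.2 hcr)
  obtain ⟨P₁, hP₁⟩ := exists_over (L := L) P
  have hne : z - algebraMap k L r ≠ 0 := by
    obtain ⟨c, hc⟩ := exists_Vl (hz P₁ hP₁)
    have hcr : c ≠ r := fun e => hcon P₁ hP₁ (e ▸ hc)
    exact (hc.sub (Vl.const r)).ne_zero (sub_ne_zero.2 hcr)
  have h2 : ord P (Algebra.norm K (z - algebraMap k L r)) = 0 := by
    rw [ord_norm]
    refine Finset.sum_eq_zero fun P' hP' => ?_
    rw [Set.Finite.mem_toFinset] at hP'
    exact h1 P' hP'
  rw [ord_norm_eq] at h2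
  have h3 : (minpoly K (z - algebraMap k L r)).coeff 0 =
      (minpoly K z).eval (algebraMap k K r) := by
    rw [IsScalarTower.algebraMap_apply k K L, minpoly.sub_algebraMap, coeff_zero_eq_eval_zero,
      eval_comp]
    simp
  have h4 : (minpoly K (z - algebraMap k L r)).coeff 0 ≠ 0 :=
    minpoly.coeff_zero_ne_zero (Algebra.IsIntegral.isIntegral _) hne
  rcases h.sub_mem rfl with h5 | h5
  · exact h4 (h3.trans h5)
  · rw [h3] at h2
    rcases mul_eq_zero.1 h2 with h6 | h6
    · exact absurd h6 (by exact_mod_cast Module.finrank_pos.ne')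
    · omega

end values

section bound

variable {C K L : Type*} [NormedField C] [IsUltrametricDist C] [IsAlgClosed C]
  [Field K] [Field L] [Algebra C K] [Algebra C L]
  [Algebra K L] [IsScalarTower C K L] [CFF C K] [CFF C L] [FiniteDimensional K L]

/-- **(S2)** -/
theorem exists_coeff_value {P : Plk C K} {z : L} {R : ℝ} (hR : 0 < R)
    (hz : ∀ P' : Plk C L, down K P' = P → ∃ c, ‖c‖ ≤ R ∧ Vl P' z c) {i : ℕ}
    (hi : i ≤ (minpoly K z).natDegree) :
    ∃ c, ‖c‖ ≤ R ^ ((minpoly K z).natDegree - i) ∧ Vl P ((minpoly K z).coeff i) c := by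
  have hz' : ∀ P' : Plk C L, down K P' = P → z ∈ P'.1 := fun P' hP' => by
    obtain ⟨c, -, hc⟩ := hz P' hP'
    exact hc.mem
  have hint : IsIntegral P.1 z := isIntegral_of_forall hz'
  have hmon : (minpoly K z).Monic := minpoly.monic (Algebra.IsIntegral.isIntegral z)
  choose c hc using fun i => exists_Vl (coeff_minpoly_mem hint i)
  set m := (minpoly K z).natDegree with hm
  have hcm : c m = 1 := by
    have := hc m
    rw [hm, hmon.coeff_natDegree] at this
    exact this.unique Vl.one
  have hc0 : ∀ j, m < j → c j = 0 := fun j hj => by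
    have := hc j
    rw [coeff_eq_zero_of_natDegree_lt hj] at this
    exact this.unique Vl.zero
  set q : C[X] := ∑ j ∈ Finset.range (m + 1), Polynomial.C (c j) * X ^ j with hq
  have hqc : ∀ j, q.coeff j = c j := by
    intro j
    rw [hq, finsetSum_coeff]
    simp only [coeff_C_mul, coeff_X_pow, mul_ite, mul_one, mul_zero]
    rw [Finset.sum_ite_eq]
    split_ifs with hj
    · rfl
    · rw [Finset.mem_range, not_lt] at hj
      exact (hc0 j (by omega)).symm
  have hqd : q.natDegree ≤ m := by
    rw [natDegree_le_iff_coeff_eq_zero]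
    intro j hj
    rw [hqc, hc0 j hj]
  have hqm : q.Monic := monic_of_natDegree_le_of_coeff_eq_one m hqd (by rw [hqc, hcm])
  have hqn : q.natDegree = m := natDegree_eq_of_le_of_coeff_ne_zero hqd (by
    rw [hqc, hcm]; exact one_ne_zero)
  have hroot : ∀ r, q.IsRoot r → ‖r‖ ≤ R := by
    intro r hr
    have h1 : Vl P ((minpoly K z).eval (algebraMap C K r)) (q.eval r) := by
      rw [eval_eq_sum_range, eval_eq_sum_range, hqn]
      refine Vl.sum fun j _ => ?_
      rw [hqc]
      exact (hc j).mul ((Vl.const r).pow j)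
    rw [hr] at h1
    obtain ⟨P', hP', hv⟩ := exists_value hz' h1
    obtain ⟨d, hd, hv'⟩ := hz P' hP'
    rwa [hv.unique hv']
  refine ⟨c i, ?_, hc i⟩
  rw [← hqc, ← hqn]
  exact norm_coeff_le_of_roots hR hqm hroot (by rw [hqn]; exact hi)

end bound

end P025H905
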