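import Vale.Agent.P025.R2.H905.Root
import Vale.Agent.P025.R2.H905.S2
import Vale.Agent.P025.R2.H905.MaxP
import Vale.Agent.P025.R2.H492.Ext3

/-!
# G-DICT: approximate powers on a side are powers over the field of the side
-/

set_option linter.unusedSectionVars false
set_option linter.style.haveILetI false

open Polynomial Vale.Agent.P019P P025H621 P025H492 P025H373 TensorProduct Filter Topology

namespace P025H905

universe u

section alg

/-- evaluation at `1 ⊗ h` -/
theorem pow_of_dvd {R F K : Type*} [Field R] [Field F] [Field K] [Algebra R F] [Algebra R K]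
    {μ : R[X]} {h : K} (hμ : aeval h μ = 0) {n : ℕ} {q : F[X]} {e : R}
    (hd : μ.map (algebraMap R F) ∣ q ^ n - (1 + Polynomial.C (algebraMap R F e) * X)) :
    ∃ z : F ⊗[R] K, z ^ n = (1 : F) ⊗ₜ[R] (1 + algebraMap R K e * h) := by
  obtain ⟨r, hr⟩ := hd
  have hev := congrArg (aeval ((1 : F) ⊗ₜ[R] h)) hr
  have h0 : aeval ((1 : F) ⊗ₜ[R] h) (μ.map (algebraMap R F)) = 0 := by
    rw [aeval_map_algebraMap]
    have : (1 : F) ⊗ₜ[R] h = (Algebra.TensorProduct.includeRight : K →ₐ[R] F ⊗[R] K) h := rfl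
    rw [this, aeval_algHom_apply, hμ, map_zero]
  rw [map_mul, h0, zero_mul, map_sub, map_pow, map_add, map_one, map_mul, aeval_X, aeval_C,
    sub_eq_zero] at hev
  refine ⟨_, hev.trans ?_⟩
  have h2 : algebraMap F (F ⊗[R] K) (algebraMap R F e) * ((1 : F) ⊗ₜ[R] h) =
      (1 : F) ⊗ₜ[R] (algebraMap R K e * h) := by
    rw [Algebra.TensorProduct.algebraMap_apply, Algebra.TensorProduct.tmul_mul_tmul, one_mul,
      mul_one, ← Algebra.smul_def, Algebra.algebraMap_self, RingHom.id_apply,
      Algebra.algebraMap_eq_smul_one (R := R) (A := F), TensorProduct.smul_tmul]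
  rw [h2, Algebra.TensorProduct.one_def, ← TensorProduct.tmul_add]

end alg

section core

variable {C K : Type u} [NontriviallyNormedField C] [IsUltrametricDist C] [CompleteSpace C]

variable (C) in
/-- `F0 C` as a nontrivially normed field. -/
@[reducible] noncomputable def ntF0 : NontriviallyNormedField (F0 C) :=
  { (inferInstance : NormedField (F0 C)) with
    non_trivial := by
      obtain ⟨x, hx⟩ := NormedField.exists_one_lt_norm C
      exact ⟨algebraMap C (F0 C) x, by rwa [norm_algebraMap_C]⟩ }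

theorem exists_poly_root (A : Subalgebra C (F0 C)) (hA : IsClosed (A : Set (F0 C)))
    {n : ℕ} (hn : (n : C) ≠ 0)
    {e : C} (he : ‖e‖ < ‖(n : C)‖ ^ 2) {μ : (RatFunc C)[X]} (hμm : μ.Monic)
    (hμd : μ.natDegree ≠ 0)
    (hc : ∀ i, algebraMap (RatFunc C) (F0 C) (μ.coeff i) ∈ A ∧ gauss C (μ.coeff i) ≤ 1) :
    ∃ p : (F0 C)[X], (∀ i, p.coeff i ∈ A) ∧
      μ.map (algebraMap (RatFunc C) (F0 C)) ∣
        p ^ n - (1 + Polynomial.C (algebraMap C (F0 C) e) * X) := by
  letI := ntF0 C
  set S : (F0 C)[X] := μ.map (algebraMap (RatFunc C) (F0 C)) with hS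
  have hSm : S.Monic := hμm.map _
  have hS1 : gp S ≤ 1 := by
    rw [gp_le_iff]
    intro i
    rw [hS, coeff_map, P025H373.norm_algebraMap]
    exact (hc i).2
  have hSne : S ≠ 1 := by
    intro h1
    refine hμd ?_
    rw [← natDegree_map (algebraMap (RatFunc C) (F0 C)), ← hS, h1, natDegree_one]
  obtain ⟨p, hpA, hdvd⟩ := exists_root_mod (C := C) A.toSubring hA
    (fun c => A.algebraMap_mem c) hn he hSm hS1 hSne (fun i => by
      rw [hS, coeff_map]; exact (hc i).1)
  exact ⟨p, hpA, hdvd⟩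

variable [Field K] [Algebra C K] [Algebra (RatFunc C) K] [IsScalarTower C (RatFunc C) K]
  [FiniteDimensional (RatFunc C) K]

/-- the algebraic core -/
theorem pow_of_coeffs (A : Subalgebra C (F0 C)) (hA : IsClosed (A : Set (F0 C)))
    (F : IntermediateField (RatFunc C) (F0 C)) (hAF : ∀ x ∈ A, x ∈ F) {n : ℕ} (hn : (n : C) ≠ 0)
    {e : C} (he : ‖e‖ < ‖(n : C)‖ ^ 2) {h : K}
    (hc : ∀ i, algebraMap (RatFunc C) (F0 C) ((minpoly (RatFunc C) h).coeff i) ∈ A ∧
      gauss C ((minpoly (RatFunc C) h).coeff i) ≤ 1) :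
    ∃ z : F ⊗[RatFunc C] K, z ^ n = 1 ⊗ₜ[RatFunc C] (1 + algebraMap C K e * h) := by
  have hint : IsIntegral (RatFunc C) h := Algebra.IsIntegral.isIntegral h
  obtain ⟨p, hpA, hdvd⟩ := exists_poly_root A hA hn he (minpoly.monic hint)
    (minpoly.natDegree_pos hint).ne' hc
  -- descend to `F`
  have hpF : p ∈ Polynomial.lifts (algebraMap F (F0 C)) := by
    rw [Polynomial.lifts_iff_coeff_lifts]
    exact fun i => ⟨⟨p.coeff i, hAF _ (hpA i)⟩, rfl⟩
  obtain ⟨q, hq⟩ := (Polynomial.mem_lifts _).1 hpF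
  set eF : F := algebraMap (RatFunc C) F (algebraMap C (RatFunc C) e) with heF
  have heF' : algebraMap F (F0 C) eF = algebraMap C (F0 C) e := rfl
  have hdvd2 : (minpoly (RatFunc C) h).map (algebraMap (RatFunc C) F) ∣
      q ^ n - (1 + Polynomial.C eF * X) := by
    rw [← Polynomial.map_dvd_map' (algebraMap F (F0 C)), Polynomial.map_map,
      ← IsScalarTower.algebraMap_eq]
    have h1 : (q ^ n - (1 + Polynomial.C eF * X)).map (algebraMap F (F0 C)) =
        p ^ n - (1 + Polynomial.C (algebraMap C (F0 C) e) * X) := by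
      simp only [Polynomial.map_sub, Polynomial.map_pow, Polynomial.map_add, Polynomial.map_one,
        Polynomial.map_mul, Polynomial.map_C, Polynomial.map_X, hq, heF']
    rw [h1]
    exact hdvd
  have := pow_of_dvd (minpoly.aeval (RatFunc C) h) hdvd2
  rwa [← IsScalarTower.algebraMap_apply] at this

end core

end P025H905
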