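import Vale.Agent.P025.R2.H373.Gauss1
import Vale.Agent.P025.R2.H602.Roots

/-!
# G-DICT: `n`-th roots of `1 + e X` modulo an integral monic polynomial
-/

set_option linter.unusedSectionVars false

open Polynomial

namespace P025H905

open P025H373

universe u

section adj

variable {K : Type u} [NontriviallyNormedField K] [IsUltrametricDist K]

lemma gp_modByMonic_le {S : K[X]} (hS : S.Monic) (h1 : gp S ≤ 1) (P : K[X]) :
    gp (P %ₘ S) ≤ gp P := by
  obtain ⟨q, r, hqr, hr, -, h⟩ := exists_div hS h1 P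
  have := (Polynomial.div_modByMonic_unique (f := P) q r hS ⟨by rw [hqr]; ring, hr⟩).2
  rw [this]
  exact h

/-- `AdjoinRoot S` as a normed ring. -/
def QR (S : K[X]) (_ : S.Monic) (_ : gp S ≤ 1) : Type u := AdjoinRoot S

variable {S : K[X]} (hS : S.Monic) (h1 : gp S ≤ 1)

/-- the representative -/
noncomputable def rp (x : QR S hS h1) : K[X] := AdjoinRoot.modByMonicHom hS x

/-- the class -/
noncomputable def cl (P : K[X]) : QR S hS h1 := AdjoinRoot.mk S P

lemma cl_rp (x : QR S hS h1) : cl hS h1 (rp hS h1 x) = x := AdjoinRoot.mk_leftInverse hS x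

lemma rp_cl (P : K[X]) : rp hS h1 (cl hS h1 P) = P %ₘ S := AdjoinRoot.modByMonicHom_mk hS P

lemma cl_eq_cl {P Q : K[X]} : cl hS h1 P = cl hS h1 Q ↔ S ∣ P - Q := AdjoinRoot.mk_eq_mk

noncomputable instance : CommRing (QR S hS h1) := inferInstanceAs (CommRing (AdjoinRoot S))

noncomputable instance : Module K (QR S hS h1) := inferInstanceAs (Module K (AdjoinRoot S))

lemma rp_add (x y : QR S hS h1) : rp hS h1 (x + y) = rp hS h1 x + rp hS h1 y :=
  map_add (AdjoinRoot.modByMonicHom hS) x y

lemma rp_neg (x : QR S hS h1) : rp hS h1 (-x) = -rp hS h1 x :=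
  map_neg (AdjoinRoot.modByMonicHom hS) x

lemma rp_zero : rp hS h1 0 = 0 := map_zero (AdjoinRoot.modByMonicHom hS)

lemma rp_smul (a : K) (x : QR S hS h1) : rp hS h1 (a • x) = a • rp hS h1 x :=
  map_smul (AdjoinRoot.modByMonicHom hS) a x

lemma cl_add (P Q : K[X]) : cl hS h1 (P + Q) = cl hS h1 P + cl hS h1 Q :=
  map_add (AdjoinRoot.mk S) P Q

lemma cl_mul (P Q : K[X]) : cl hS h1 (P * Q) = cl hS h1 P * cl hS h1 Q :=
  map_mul (AdjoinRoot.mk S) P Q

lemma cl_one : cl hS h1 1 = 1 := map_one (AdjoinRoot.mk S)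

lemma cl_zero : cl hS h1 0 = 0 := map_zero (AdjoinRoot.mk S)

lemma cl_pow (P : K[X]) (n : ℕ) : cl hS h1 (P ^ n) = cl hS h1 P ^ n :=
  map_pow (AdjoinRoot.mk S) P n

lemma smul_eq_cl_mul (a : K) (x : QR S hS h1) : a • x = cl hS h1 (Polynomial.C a) * x :=
  Algebra.smul_def (R := K) (A := AdjoinRoot S) a x

lemma rp_mul (x y : QR S hS h1) : rp hS h1 (x * y) = (rp hS h1 x * rp hS h1 y) %ₘ S := by
  rw [← rp_cl hS h1, cl_mul, cl_rp, cl_rp]

instance : FiniteDimensional K (QR S hS h1) := (AdjoinRoot.powerBasis' hS).finite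

noncomputable instance : NormedAddCommGroup (QR S hS h1) :=
  AddGroupNorm.toNormedAddCommGroup
    { toFun := fun x => gp (rp hS h1 x)
      map_zero' := by rw [rp_zero, gp_zero]
      add_le' := fun x y => by
        rw [rp_add]
        exact (gp_add_le_max _ _).trans (max_le_add_of_nonneg (gp_nonneg _) (gp_nonneg _))
      neg' := fun x => by rw [rp_neg, gp_neg]
      eq_zero_of_map_eq_zero' := fun x hx => by
        rw [← cl_rp hS h1 x, gp_eq_zero.1 hx, cl_zero] }

lemma norm_def (x : QR S hS h1) : ‖x‖ = gp (rp hS h1 x) := rfl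

noncomputable instance : NormedCommRing (QR S hS h1) :=
  { (inferInstance : CommRing (QR S hS h1)), (inferInstance : NormedAddCommGroup (QR S hS h1)) with
    dist_eq := fun x y => NormedAddCommGroup.dist_eq x y
    norm_mul_le := fun x y => by
      change gp (rp hS h1 (x * y)) ≤ gp (rp hS h1 x) * gp (rp hS h1 y)
      rw [← gp_mul, rp_mul]
      exact gp_modByMonic_le hS h1 _ }

lemma norm_smul_eq (a : K) (x : QR S hS h1) : ‖a • x‖ = ‖a‖ * ‖x‖ := by
  rw [norm_def, norm_def, rp_smul, smul_eq_C_mul, gp_mul, gp_C]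

noncomputable instance : NormedSpace K (QR S hS h1) :=
  { (inferInstance : Module K (QR S hS h1)) with
    norm_smul_le := fun a x => (norm_smul_eq hS h1 a x).le }

noncomputable instance : NormedAlgebra K (QR S hS h1) :=
  { algebraMap := (AdjoinRoot.mk S).comp Polynomial.C
    commutes' := fun _ _ => mul_comm _ _
    smul_def' := fun a x => smul_eq_cl_mul hS h1 a x
    norm_smul_le := fun a x => (norm_smul_eq hS h1 a x).le }

instance : IsUltrametricDist (QR S hS h1) :=
  IsUltrametricDist.isUltrametricDist_of_forall_norm_add_le_max_norm fun x y => by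
    rw [norm_def, norm_def, norm_def, rp_add]
    exact gp_add_le_max _ _

instance [CompleteSpace K] : CompleteSpace (QR S hS h1) :=
  FiniteDimensional.complete K (QR S hS h1)

end adj

/-- **(ROOT)** -/
theorem exists_root_mod {C : Type u} [NontriviallyNormedField C] [IsUltrametricDist C]
    {K : Type u} [NontriviallyNormedField K] [IsUltrametricDist K] [CompleteSpace K]
    [NormedAlgebra C K] (A : Subring K) (hA : IsClosed (A : Set K))
    (hC : ∀ c : C, algebraMap C K c ∈ A) {n : ℕ} (hn : (n : C) ≠ 0) {e : C}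
    (he : ‖e‖ < ‖(n : C)‖ ^ 2) {S : K[X]} (hS : S.Monic) (h1 : gp S ≤ 1) (hd : S ≠ 1)
    (hSA : ∀ i, S.coeff i ∈ A) :
    ∃ p : K[X], (∀ i, p.coeff i ∈ A) ∧
      S ∣ p ^ n - (1 + Polynomial.C (algebraMap C K e) * X) := by
  classical
  have hn' : ((n : ℕ) : K) ≠ 0 := by
    rw [← map_natCast (algebraMap C K)]
    exact (_root_.map_ne_zero _).2 hn
  have hrp1 : rp hS h1 1 = 1 := by
    rw [← cl_one, rp_cl]
    refine (Polynomial.modByMonic_eq_self_iff hS).2 ?_
    rw [degree_one]
    by_contra h
    rw [not_lt] at h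
    exact hd (hS.degree_le_zero_iff_eq_one.1 h)
  have : NormOneClass (QR S hS h1) := ⟨by rw [norm_def, hrp1, gp_one]⟩
  -- the subring of elements with coordinates in `A`
  have hmod : ∀ P : K[X], (∀ i, P.coeff i ∈ A) → ∀ i, (P %ₘ S).coeff i ∈ A := by
    intro P hP
    have hP' : P ∈ Polynomial.lifts A.subtype := by
      rw [Polynomial.lifts_iff_coeff_lifts]
      exact fun i => ⟨⟨_, hP i⟩, rfl⟩
    have hS' : S ∈ Polynomial.lifts A.subtype := by
      rw [Polynomial.lifts_iff_coeff_lifts]
      exact fun i => ⟨⟨_, hSA i⟩, rfl⟩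
    obtain ⟨P', rfl⟩ := (Polynomial.mem_lifts _).1 hP'
    obtain ⟨S', hS1, -, hS2⟩ := Polynomial.lifts_and_natDegree_eq_and_monic hS' hS
    intro i
    rw [← hS1, ← Polynomial.map_modByMonic _ hS2, coeff_map]
    exact SetLike.coe_mem _
  let B : Subring (QR S hS h1) :=
    { carrier := {x | ∀ i, (rp hS h1 x).coeff i ∈ A}
      mul_mem' := fun {x y} hx hy i => by
        rw [rp_mul]
        refine hmod _ (fun j => ?_) i
        rw [coeff_mul]
        exact sum_mem fun a _ => mul_mem (hx _) (hy _)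
      one_mem' := fun i => by
        rw [hrp1, coeff_one]
        split_ifs
        · exact one_mem _
        · exact zero_mem _
      add_mem' := fun {x y} hx hy i => by
        rw [rp_add, coeff_add]
        exact add_mem (hx i) (hy i)
      zero_mem' := fun i => by
        rw [rp_zero, coeff_zero]
        exact zero_mem _
      neg_mem' := fun {x} hx i => by
        rw [rp_neg, coeff_neg]
        exact neg_mem (hx i) }
  have hB : IsClosed (B : Set (QR S hS h1)) := by
    have : (B : Set (QR S hS h1)) = ⋂ i : ℕ, {x | (rp hS h1 x).coeff i ∈ A} := by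
      ext x
      simp only [Set.mem_iInter]
      rfl
    rw [this]
    refine isClosed_iInter fun i => ?_
    have hcont : Continuous fun x : QR S hS h1 => (rp hS h1 x).coeff i := by
      let ℓ : QR S hS h1 →ₗ[K] K :=
        { toFun := fun x => (rp hS h1 x).coeff i
          map_add' := fun x y => by rw [rp_add, coeff_add]
          map_smul' := fun a x => by rw [rp_smul, coeff_smul]; rfl }
      exact ℓ.continuous_of_finiteDimensional
    exact hA.preimage hcont
  have hKA : ∀ a : K, algebraMap K (QR S hS h1) a = a • (1 : QR S hS h1) := fun a =>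
    Algebra.algebraMap_eq_smul_one a
  let alg : Algebra C (QR S hS h1) :=
    ((algebraMap K (QR S hS h1)).comp (algebraMap C K)).toAlgebra
  let nalg : NormedAlgebra C (QR S hS h1) :=
    { alg with
      norm_smul_le := fun c x => by
        have h : c • x = (algebraMap C K c) • x := by
          rw [Algebra.smul_def (R := K)]
          rfl
        rw [h, norm_smul_eq, norm_algebraMap'] }
  have hCB : ∀ c : C, algebraMap C (QR S hS h1) c ∈ B := fun c i => by
    have : algebraMap C (QR S hS h1) c = (algebraMap C K c) • 1 := hKA _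
    rw [this, rp_smul, hrp1, coeff_smul, coeff_one, smul_eq_mul]
    split_ifs
    · rw [mul_one]; exact hC c
    · rw [mul_zero]; exact zero_mem _
  set x0 : QR S hS h1 := cl hS h1 (1 + Polynomial.C (algebraMap C K e) * X) with hx0
  have hx0B : x0 ∈ B := fun i => by
    rw [hx0, rp_cl]
    refine hmod _ (fun j => ?_) i
    rw [coeff_add, coeff_one, coeff_C_mul, coeff_X]
    refine add_mem ?_ (mul_mem (hC e) ?_) <;> split_ifs <;> simp
  have hx0n : ‖x0 - 1‖ < ‖(n : C)‖ ^ 2 := by
    have h : x0 - 1 = cl hS h1 (Polynomial.C (algebraMap C K e) * X) := by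
      rw [hx0, cl_add, cl_one, add_sub_cancel_left]
    rw [h, norm_def, rp_cl]
    refine (gp_modByMonic_le hS h1 _).trans_lt ?_
    rw [gp_mul, gp_C, gp_X, mul_one, norm_algebraMap']
    exact he
  obtain ⟨y, hy, hyn, -⟩ := exists_pow_eq (C := C) B hB hCB hn hx0B hx0n
  refine ⟨rp hS h1 y, hy, ?_⟩
  rw [← cl_eq_cl hS h1, cl_pow, cl_rp, hyn]

end P025H905
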