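import Vale.Agent.P025.R2.H621.Defs
import Vale.Agent.P025.R2.H492.Ext2

/-!
# G-DICT: values of functions at places
-/

set_option linter.unusedSectionVars false

open Polynomial Vale.Agent.P019P P025H621

namespace P025H905

universe u

section val

variable {k F : Type*} [Field k] [Field F] [Algebra k F] [CFF k F] {P : Plk k F}

/-- `z` is regular at `P` with value `c` -/
def Vl (P : Plk k F) (z : F) (c : k) : Prop := z - algebraMap k F c ∈ Mge P 1

lemma mem_iff_Mge {z : F} : z ∈ P.1 ↔ z ∈ Mge P 0 := by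
  rw [mem_iff_ord, mem_Mge]

lemma Vl.mem {z : F} {c : k} (h : Vl P z c) : z ∈ P.1 := by
  have h1 : z - algebraMap k F c ∈ P.1 := mem_iff_Mge.2 (Mge_mono P (by omega) h)
  have := add_mem h1 (P.2.1 c)
  rwa [sub_add_cancel] at this

lemma exists_Vl {z : F} (h : z ∈ P.1) : ∃ c, Vl P z c := by
  obtain ⟨c, hc⟩ := exists_cst P h
  refine ⟨c, ?_⟩
  rcases hc with hc | hc
  · left; rw [hc, sub_self]
  · right; omega

lemma one_notMem : (1 : F) ∉ Mge P 1 := by
  rintro (h | h)
  · exact one_ne_zero h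
  · rw [ord_one] at h; omega

lemma Vl.const (c : k) : Vl P (algebraMap k F c) c := by
  left; rw [sub_self]

lemma const_mem_Mge_one {c : k} (h : algebraMap k F c ∈ Mge P 1) : c = 0 := by
  by_contra hc
  rcases h with h | h
  · exact hc ((map_eq_zero _).1 h)
  · rw [ord_const] at h; omega

lemma Vl.unique {z : F} {c d : k} (h : Vl P z c) (h' : Vl P z d) : c = d := by
  have h1 : algebraMap k F (c - d) ∈ Mge P 1 := by
    have := (Mge P 1).sub_mem h' h
    rwa [sub_sub_sub_cancel_left, ← map_sub] at this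
  exact sub_eq_zero.1 (const_mem_Mge_one h1)

lemma Vl.add {z w : F} {c d : k} (h : Vl P z c) (h' : Vl P w d) : Vl P (z + w) (c + d) := by
  have := (Mge P 1).add_mem h h'
  rwa [Vl, map_add, add_sub_add_comm]

lemma Vl.neg {z : F} {c : k} (h : Vl P z c) : Vl P (-z) (-c) := by
  have := (Mge P 1).neg_mem h
  rwa [neg_sub, ← neg_sub_neg, ← map_neg] at this

lemma Vl.sub {z w : F} {c d : k} (h : Vl P z c) (h' : Vl P w d) : Vl P (z - w) (c - d) := by
  rw [sub_eq_add_neg, sub_eq_add_neg]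
  exact h.add h'.neg

lemma Vl.mul {z w : F} {c d : k} (h : Vl P z c) (h' : Vl P w d) : Vl P (z * w) (c * d) := by
  have e : z * w - algebraMap k F (c * d) =
      (z - algebraMap k F c) * w + algebraMap k F c * (w - algebraMap k F d) := by
    rw [map_mul]; ring
  rw [Vl, e]
  have h1 := mul_mem_Mge h (mem_iff_Mge.1 h'.mem)
  have h2 := mul_mem_Mge (mem_iff_Mge.1 (P.2.1 c)) h'
  rw [add_zero] at h1
  rw [zero_add] at h2
  exact add_mem h1 h2

lemma Vl.zero : Vl P (0 : F) 0 := by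
  have := Vl.const (P := P) (0 : k)
  rwa [map_zero] at this

lemma Vl.one : Vl P (1 : F) 1 := by
  have := Vl.const (P := P) (1 : k)
  rwa [map_one] at this

lemma Vl.pow {z : F} {c : k} (h : Vl P z c) (n : ℕ) : Vl P (z ^ n) (c ^ n) := by
  induction n with
  | zero => rw [pow_zero, pow_zero]; exact Vl.one
  | succ n ih => rw [pow_succ, pow_succ]; exact ih.mul h

lemma Vl.sum {ι : Type*} {s : Finset ι} {f : ι → F} {c : ι → k} (h : ∀ i ∈ s, Vl P (f i) (c i)) :
    Vl P (∑ i ∈ s, f i) (∑ i ∈ s, c i) := by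
  classical
  induction s using Finset.induction_on with
  | empty => simpa using Vl.zero
  | insert i s hi ih =>
    rw [Finset.sum_insert hi, Finset.sum_insert hi]
    exact (h i (Finset.mem_insert_self _ _)).add
      (ih fun j hj => h j (Finset.mem_insert_of_mem hj))

lemma Vl.ne_zero {z : F} {c : k} (h : Vl P z c) (hc : c ≠ 0) : z ≠ 0 := by
  rintro rfl
  exact hc (h.unique Vl.zero)

lemma Vl.ord_eq {z : F} {c : k} (h : Vl P z c) (hc : c ≠ 0) : ord P z = 0 := by
  have h1 := (((mem_iff_ord P z).1 h.mem).resolve_left (h.ne_zero hc))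
  by_contra h2
  have h3 : z ∈ Mge P 1 := Or.inr (by omega)
  have h4 : Vl P z 0 := by rwa [Vl, map_zero, sub_zero]
  exact hc (h.unique h4)

lemma Vl.inv {z : F} {c : k} (h : Vl P z c) (hc : c ≠ 0) : Vl P z⁻¹ c⁻¹ := by
  have hz := h.ne_zero hc
  have h1 : z⁻¹ ∈ P.1 := (mem_iff_ord P _).2 (Or.inr (by rw [ord_inv, h.ord_eq hc, neg_zero]))
  obtain ⟨d, hd⟩ := exists_Vl h1
  have h2 := h.mul hd
  rw [mul_inv_cancel₀ hz] at h2
  have h3 := h2.unique Vl.one
  rwa [← eq_inv_of_mul_eq_one_right h3]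

lemma Vl.div {z w : F} {c d : k} (h : Vl P z c) (h' : Vl P w d) (hd : d ≠ 0) :
    Vl P (z / w) (c / d) := by
  rw [div_eq_mul_inv, div_eq_mul_inv]
  exact h.mul (h'.inv hd)

lemma Vl.aeval {z : F} {c : k} (h : Vl P z c) (p : k[X]) : Vl P (aeval z p) (p.eval c) := by
  rw [aeval_eq_sum_range, eval_eq_sum_range]
  refine Vl.sum fun i _ => ?_
  rw [Algebra.smul_def]
  exact (Vl.const _).mul (h.pow i)

lemma Vl.sub_mem {z : F} {c : k} (h : Vl P z c) (h0 : c = 0) : z ∈ Mge P 1 := by
  rwa [Vl, h0, map_zero, sub_zero] at h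

end val

section ball

variable {C K : Type u} [NormedField C] [Field K] [Algebra C K] [CFF C K] {P : Plk C K}

lemma inBall_iff {z : K} {a : C} {r : ℝ} : InBall P z a r ↔ ∃ c, ‖c - a‖ ≤ r ∧ Vl P z c := Iff.rfl

lemma inBall_zero {z : K} {r : ℝ} : InBall P z 0 r ↔ ∃ c, ‖c‖ ≤ r ∧ Vl P z c := by
  simp only [inBall_iff, sub_zero]

end ball

section place

variable {k F : Type*} [Field k] [Field F] [Algebra k F] [CFF k F]

end place

end P025H905
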